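import Vale.Agent.Lib.QInfo.Entropy
import Mathlib.LinearAlgebra.Matrix.SchurComplement

/-! Determinant inequalities: monotonicity, Hua, and the log-convexity of
`D ↦ |det (D + S)| / det D` for skew-Hermitian `S`. -/

open Matrix Real
open scoped ComplexOrder MatrixOrder

set_option linter.unusedSectionVars false

namespace Vale.Agent.QInfo

variable {n m : Type} [Fintype n] [DecidableEq n] [Fintype m] [DecidableEq m]

lemma exists_normalizer {D : Matrix n n ℂ} (hD : D.PosDef) :
    ∃ R : Matrix n n ℂ, IsUnit R ∧ Rᴴ * D * R = 1 := by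
  obtain ⟨B, hB, rfl⟩ := CStarAlgebra.isStrictlyPositive_iff_eq_star_mul_self.mp
    hD.isStrictlyPositive
  have hB' : IsUnit B.det := (Matrix.isUnit_iff_isUnit_det _).mp hB
  refine ⟨B⁻¹, ?_, ?_⟩
  · exact (Matrix.isUnit_nonsing_inv_iff).mpr hB
  · rw [star_eq_conjTranspose, ← Matrix.mul_assoc, ← conjTranspose_mul, Matrix.mul_nonsing_inv _ hB',
      conjTranspose_one, Matrix.one_mul, Matrix.mul_nonsing_inv _ hB']

lemma norm_det_conj (R A : Matrix n n ℂ) : ‖(Rᴴ * A * R).det‖ = ‖R.det‖ ^ 2 * ‖A.det‖ := by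
  rw [det_mul, det_mul, det_conjTranspose, norm_mul, norm_mul, norm_star]; ring

lemma norm_det_shift {A : Matrix n n ℂ} (hA : A.PosSemidef) {t : ℝ} (ht : 0 ≤ t) :
    ‖((t : ℂ) • (1 : Matrix n n ℂ) + A).det‖ = ∏ i, (t + hA.1.eigenvalues i) := by
  rw [det_shift hA.1, Complex.norm_real, Real.norm_of_nonneg]
  exact Finset.prod_nonneg fun i _ => add_nonneg ht (hA.eigenvalues_nonneg i)

lemma norm_det_pos {A : Matrix n n ℂ} (hA : A.PosDef) : 0 < ‖A.det‖ :=
  norm_pos_iff.mpr hA.det_pos.ne'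

lemma norm_det_mono {A B : Matrix n n ℂ} (hA : A.PosDef) (h : (B - A).PosSemidef) :
    ‖A.det‖ ≤ ‖B.det‖ := by
  obtain ⟨R, hR, h1⟩ := exists_normalizer hA
  have hC := h.conjTranspose_mul_mul_same R
  have e1 : Rᴴ * B * R = ((1 : ℝ) : ℂ) • (1 : Matrix n n ℂ) + Rᴴ * (B - A) * R := by
    rw [Matrix.mul_sub, Matrix.sub_mul, h1]; simp
  have e2 := norm_det_conj R B
  have e3 := norm_det_conj R A
  rw [e1, norm_det_shift hC zero_le_one] at e2
  rw [h1, det_one, norm_one] at e3
  have e4 : (1 : ℝ) ≤ ∏ i, (1 + hC.1.eigenvalues i) :=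
    Finset.one_le_prod fun i _ => by linarith [hC.eigenvalues_nonneg i]
  have hpos : 0 < ‖R.det‖ ^ 2 := by
    have : R.det ≠ 0 := ((Matrix.isUnit_iff_isUnit_det _).mp hR).ne_zero
    positivity
  have : ‖R.det‖ ^ 2 * ‖A.det‖ ≤ ‖R.det‖ ^ 2 * ‖B.det‖ := by linarith
  exact le_of_mul_le_mul_left this hpos

lemma hua_identity {R : Type*} [Ring R] (a b j : R) (h1 : (1 - b * a) * j = 1)
    (h2 : j * (1 - b * a) = 1) :
    (1 - b * b) * (1 + a * j * b) * (1 - a * a) - (1 - b * a) = (a - b) * j * (b - a) := by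
  have hu : j * b * a - j + 1 = 0 := by rw [← h2]; noncomm_ring
  have hv : b * a * j - j + 1 = 0 := by rw [← h1]; noncomm_ring
  have : (1 - b * b) * (1 + a * j * b) * (1 - a * a) - (1 - b * a) - (a - b) * j * (b - a)
      = -(a * (j * b * a - j + 1) * a) - b * (b * a * j - j + 1) * b
        + b * (b * a * j - j + 1) * b * a * a + b * (j * b * a - j + 1) * a := by
    noncomm_ring
  rw [hu, hv] at this
  simpa [sub_eq_zero] using this

/-- A special case of Hua's determinant inequality. -/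
lemma hua {Z : Matrix n n ℂ} (h : (1 - Zᴴ * Z).PosDef) :
    ‖(1 - Zᴴ * Z).det‖ ≤ ‖(1 - Z * Z).det‖ := by
  set P := 1 - Zᴴ * Z with hP
  have hu : IsUnit P.det := (Matrix.isUnit_iff_isUnit_det _).mp h.isUnit
  have h1 : (1 - Zᴴ * Z) * P⁻¹ = 1 := Matrix.mul_nonsing_inv _ hu
  have h2 : P⁻¹ * (1 - Zᴴ * Z) = 1 := Matrix.nonsing_inv_mul _ hu
  have hid := hua_identity Z Zᴴ P⁻¹ h1 h2
  have hpsd : ((Z - Zᴴ) * P⁻¹ * (Zᴴ - Z)).PosSemidef := by
    have := h.inv.posSemidef.conjTranspose_mul_mul_same (Zᴴ - Z)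
    simpa using this
  rw [← hid] at hpsd
  have hm := norm_det_mono h hpsd
  have hW : (1 - Z * Zᴴ) * (1 + Z * P⁻¹ * Zᴴ) = 1 := by
    have : (1 - Z * Zᴴ) * (1 + Z * P⁻¹ * Zᴴ)
        = 1 - Z * Zᴴ + Z * ((1 - Zᴴ * Z) * P⁻¹) * Zᴴ := by noncomm_ring
    rw [this, h1]; simp
  have hW' := congrArg (fun M => ‖M.det‖) hW
  simp only [det_mul, norm_mul, det_one, norm_one] at hW'
  rw [det_one_sub_mul_comm, ← hP] at hW'
  have e : (1 - Zᴴ * Zᴴ) = (1 - Z * Z)ᴴ := by simp
  rw [det_mul, det_mul, norm_mul, norm_mul, e, det_conjTranspose, norm_star] at hm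
  have hp := norm_det_pos h
  set x := ‖P.det‖
  set y := ‖(1 - Z * Z).det‖
  set w := ‖(1 + Z * P⁻¹ * Zᴴ).det‖
  have hy : 0 ≤ y := norm_nonneg _
  have : x * x ≤ y * y := by
    calc x * x ≤ x * (y * w * y) := by gcongr
      _ = y * y * (x * w) := by ring
      _ = y * y := by rw [hW', mul_one]
  exact abs_le_abs_of_mul_self_le hp.le hy this
where
  abs_le_abs_of_mul_self_le {x y : ℝ} (_hx : 0 ≤ x) (hy : 0 ≤ y) (h : x * x ≤ y * y) : x ≤ y := by
    by_contra hc
    push Not at hc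
    nlinarith

lemma midpoint_one {E S : Matrix n n ℂ} (hp : (1 + E).PosDef) (hm : (1 - E).PosDef)
    (hS : Sᴴ = -S) :
    ‖(1 + S).det‖ ^ 2 * (‖(1 + E).det‖ * ‖(1 - E).det‖)
      ≤ ‖(1 + E + S).det‖ * ‖(1 - E + S).det‖ := by
  have hE : Eᴴ = E := by
    have := hp.1
    rw [Matrix.IsHermitian, conjTranspose_add, conjTranspose_one] at this
    exact add_left_cancel this
  have hMM : (1 + S)ᴴ * (1 + S) = 1 + Sᴴ * S := by
    rw [conjTranspose_add, conjTranspose_one, hS]; noncomm_ring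
  have hMMpd : (1 + Sᴴ * S).PosDef :=
    PosDef.one.add_posSemidef (posSemidef_conjTranspose_mul_self S)
  have hMu : IsUnit (1 + S).det := by
    have := norm_det_pos hMMpd
    rw [← hMM, det_mul, norm_mul] at this
    have h2 : ‖(1 + S).det‖ ≠ 0 := fun h0 => by rw [h0, mul_zero] at this; exact lt_irrefl _ this
    exact isUnit_iff_ne_zero.mpr (norm_ne_zero_iff.mp h2)
  set C := (1 + S)⁻¹ with hC
  have hMC : (1 + S) * C = 1 := Matrix.mul_nonsing_inv _ hMu
  have hE2 : (1 - E * E).PosDef := by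
    have i1 : Function.Injective (1 + E).mulVec := mulVec_injective_iff_isUnit.mpr hp.isUnit
    have a1 := hm.conjTranspose_mul_mul_same i1
    have a2 := hp.posSemidef.conjTranspose_mul_mul_same (1 - E)
    have a3 := (a1.add_posSemidef a2).smul (a := (1 / 2 : ℝ)) (by norm_num)
    have e : (1 + E)ᴴ * (1 - E) * (1 + E) + (1 - E)ᴴ * (1 + E) * (1 - E)
        = (2 : ℝ) • (1 - E * E) := by
      rw [conjTranspose_add, conjTranspose_sub, conjTranspose_one, hE, two_smul]; noncomm_ring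
    rw [e, smul_smul] at a3
    simpa using a3
  have hdiff : ((1 - (C * E)ᴴ * (C * E)) - (1 - E * E)).PosSemidef := by
    have a1 := (posSemidef_conjTranspose_mul_self (S * C * E))
    have e1 : Cᴴ * (1 + Sᴴ * S) * C = 1 := by
      rw [← hMM, ← Matrix.mul_assoc, ← conjTranspose_mul, hMC, conjTranspose_one, Matrix.one_mul,
        hMC]
    have e : (1 - (C * E)ᴴ * (C * E)) - (1 - E * E) = (S * C * E)ᴴ * (S * C * E) := by
      simp only [conjTranspose_mul, hE]
      calc 1 - E * Cᴴ * (C * E) - (1 - E * E)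
          = E * (Cᴴ * (1 + Sᴴ * S) * C) * E - E * Cᴴ * (C * E) := by rw [e1]; noncomm_ring
        _ = _ := by noncomm_ring
    rw [e]; exact a1
  have hZ : (1 - (C * E)ᴴ * (C * E)).PosDef := by
    have := hE2.add_posSemidef hdiff
    simpa using this
  have h1 := norm_det_mono hE2 hdiff
  have h2 := hua hZ
  have e1 : 1 + E + S = (1 + S) * (1 + C * E) := by
    rw [Matrix.mul_add, ← Matrix.mul_assoc, hMC]; noncomm_ring
  have e2 : 1 - E + S = (1 + S) * (1 - C * E) := by
    rw [Matrix.mul_sub, ← Matrix.mul_assoc, hMC]; noncomm_ring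
  have e3 : 1 - E * E = (1 + E) * (1 - E) := by noncomm_ring
  have e4 : 1 - C * E * (C * E) = (1 + C * E) * (1 - C * E) := by noncomm_ring
  rw [e3, det_mul, norm_mul] at h1
  rw [e4, det_mul, norm_mul] at h2
  rw [e1, e2, det_mul, det_mul, norm_mul, norm_mul]
  have h3 := h1.trans h2
  calc _ ≤ ‖(1 + S).det‖ ^ 2 * (‖(1 + C * E).det‖ * ‖(1 - C * E).det‖) := by gcongr
    _ = _ := by ring

lemma midpoint {D E S : Matrix n n ℂ} (hD : D.PosDef) (hp : (D + E).PosDef) (hm : (D - E).PosDef)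
    (hS : Sᴴ = -S) :
    ‖(D + S).det‖ ^ 2 * (‖(D + E).det‖ * ‖(D - E).det‖)
      ≤ ‖(D + E + S).det‖ * ‖(D - E + S).det‖ * ‖D.det‖ ^ 2 := by
  obtain ⟨R, hR, h1⟩ := exists_normalizer hD
  have i1 : Function.Injective R.mulVec := mulVec_injective_iff_isUnit.mpr hR
  have e1 : 1 + Rᴴ * E * R = Rᴴ * (D + E) * R := by rw [← h1]; noncomm_ring
  have e2 : 1 - Rᴴ * E * R = Rᴴ * (D - E) * R := by rw [← h1]; noncomm_ring
  have e3 : 1 + Rᴴ * S * R = Rᴴ * (D + S) * R := by rw [← h1]; noncomm_ring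
  have e4 : Rᴴ * (D + E) * R + Rᴴ * S * R = Rᴴ * (D + E + S) * R := by noncomm_ring
  have e5 : Rᴴ * (D - E) * R + Rᴴ * S * R = Rᴴ * (D - E + S) * R := by noncomm_ring
  have h := midpoint_one (E := Rᴴ * E * R) (S := Rᴴ * S * R)
    (by rw [e1]; exact hp.conjTranspose_mul_mul_same i1)
    (by rw [e2]; exact hm.conjTranspose_mul_mul_same i1)
    (by simp only [conjTranspose_mul, conjTranspose_conjTranspose, hS]; noncomm_ring)
  rw [e1, e2, e3, e4, e5] at h
  simp only [norm_det_conj] at h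
  have h2 := norm_det_conj R D
  rw [h1, det_one, norm_one] at h2
  set r := ‖R.det‖ ^ 2
  set d := ‖D.det‖
  have hd : 0 ≤ d := norm_nonneg _
  calc _ = ((r * ‖(D + S).det‖) ^ 2 * (r * ‖(D + E).det‖ * (r * ‖(D - E).det‖))) * d ^ 4 := by
        have : (r * d) ^ 4 = 1 := by rw [← h2]; simp
        linear_combination (-(‖(D + S).det‖ ^ 2 * (‖(D + E).det‖ * ‖(D - E).det‖))) * this
    _ ≤ (r * ‖(D + E + S).det‖ * (r * ‖(D - E + S).det‖)) * d ^ 4 := by gcongr
    _ = _ := by
        have : (r * d) ^ 2 = 1 := by rw [← h2]; simp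
        linear_combination (‖(D + E + S).det‖ * ‖(D - E + S).det‖ * d ^ 2) * this

/-- the matrix with the entries joining different labels, one of them in `s`, set to zero -/
def dephase (lb : m → n) (s : Finset n) (D : Matrix m m ℂ) : Matrix m m ℂ :=
  fun a b => if lb a = lb b ∨ (lb a ∉ s ∧ lb b ∉ s) then D a b else 0

lemma dephase_step {lb : m → n} {D S : Matrix m m ℂ} (hD : D.PosDef) (hS : Sᴴ = -S)
    (hSl : ∀ a b, lb a ≠ lb b → S a b = 0) (i : n) :
    (dephase lb {i} D).PosDef ∧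
    ‖(dephase lb {i} D + S).det‖ * ‖D.det‖ ≤ ‖(D + S).det‖ * ‖(dephase lb {i} D).det‖ := by
  set ε : Matrix m m ℂ := diagonal (fun a => if lb a = i then -1 else 1) with hε
  have hεH : εᴴ = ε := by
    rw [hε, diagonal_conjTranspose]; congr 1; ext a; by_cases h : lb a = i <;> simp [h]
  have hεε : ε * ε = 1 := by
    rw [hε, diagonal_mul_diagonal, ← diagonal_one]; congr 1; ext a
    by_cases h : lb a = i <;> simp [h]
  have hεu : IsUnit ε := IsUnit.of_mul_eq_one _ hεε
  have hdet : ‖ε.det‖ ^ 2 = 1 := by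
    have := congrArg (fun M => ‖M.det‖) hεε
    simpa [det_mul, sq] using this
  set D0 := dephase lb {i} D with hD0
  have hent : ∀ (M : Matrix m m ℂ) a b, (εᴴ * M * ε) a b
      = (if lb a = i then -1 else 1) * M a b * (if lb b = i then -1 else 1) := by
    intro M a b
    rw [hεH, hε, Matrix.mul_diagonal, Matrix.diagonal_mul]
  have e1 : D0 + (D - D0) = D := by abel
  have e2 : D0 - (D - D0) = εᴴ * D * ε := by
    ext a b
    rw [hent]
    simp only [hD0, dephase, Matrix.sub_apply, Finset.mem_singleton]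
    by_cases ha : lb a = i <;> by_cases hb : lb b = i
    · simp [ha, hb]
    · have : ¬ i = lb b := fun h => hb h.symm
      simp [ha, hb, this]
    · simp [ha, hb]
    · simp [ha, hb]
  have e3 : εᴴ * S * ε = S := by
    ext a b
    rw [hent]
    by_cases ha : lb a = i <;> by_cases hb : lb b = i
    · simp [ha, hb]
    · simp [hSl a b (fun h => hb (h ▸ ha))]
    · simp [hSl a b (fun h => ha (h ▸ hb))]
    · simp [ha, hb]
  have hm : (εᴴ * D * ε).PosDef :=
    hD.conjTranspose_mul_mul_same (mulVec_injective_iff_isUnit.mpr hεu)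
  have hD0pd : D0.PosDef := by
    have a3 := (hD.add hm).smul (a := (1 / 2 : ℝ)) (by norm_num)
    have e : D + εᴴ * D * ε = (2 : ℝ) • D0 := by rw [← e2, two_smul]; abel
    rw [e, smul_smul] at a3
    simpa using a3
  refine ⟨hD0pd, ?_⟩
  have h := midpoint (E := D - D0) hD0pd (by rwa [e1]) (by rwa [e2]) hS
  have e4 : εᴴ * D * ε + S = εᴴ * (D + S) * ε := by
    conv_lhs => rw [← e3]
    noncomm_ring
  rw [e1, e2, e4, norm_det_conj, norm_det_conj, hdet, one_mul, one_mul] at h
  apply hua.abs_le_abs_of_mul_self_le (by positivity) (by positivity)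
  nlinarith [h]

lemma dephase_ineq {lb : m → n} {D S : Matrix m m ℂ} (hD : D.PosDef) (hS : Sᴴ = -S)
    (hSl : ∀ a b, lb a ≠ lb b → S a b = 0) (s : Finset n) :
    (dephase lb s D).PosDef ∧
    ‖(dephase lb s D + S).det‖ * ‖D.det‖ ≤ ‖(D + S).det‖ * ‖(dephase lb s D).det‖ := by
  induction s using Finset.induction_on with
  | empty =>
    have : dephase lb ∅ D = D := by ext a b; simp [dephase]
    rw [this]; exact ⟨hD, le_rfl⟩
  | insert i s _ ih =>
    obtain ⟨h1, h2⟩ := ih
    obtain ⟨h3, h4⟩ := dephase_step h1 hS hSl i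
    have e : dephase lb {i} (dephase lb s D) = dephase lb (insert i s) D := by
      ext a b
      simp only [dephase, Finset.mem_singleton, Finset.mem_insert, not_or]
      by_cases h : lb a = lb b
      · simp [h]
      · by_cases ha : lb a = i <;> by_cases hb : lb b = i <;> by_cases hc : lb a ∈ s <;>
          by_cases hd : lb b ∈ s <;> simp_all
    rw [e] at h3 h4
    refine ⟨h3, ?_⟩
    have p1 := norm_det_pos h1
    have p2 := norm_det_pos h3
    apply le_of_mul_le_mul_right _ p1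
    calc _ = (‖(dephase lb (insert i s) D + S).det‖ * ‖(dephase lb s D).det‖) * ‖D.det‖ := by ring
      _ ≤ (‖(dephase lb s D + S).det‖ * ‖(dephase lb (insert i s) D).det‖) * ‖D.det‖ := by gcongr
      _ = (‖(dephase lb s D + S).det‖ * ‖D.det‖) * ‖(dephase lb (insert i s) D).det‖ := by ring
      _ ≤ (‖(D + S).det‖ * ‖(dephase lb s D).det‖) * ‖(dephase lb (insert i s) D).det‖ := by gcongr
      _ = _ := by ring

/-- Key determinant inequality. -/
lemma det_dephase {P Q : Matrix n n ℂ} (hP : P.PosDef) (hQ : Q.PosDef) (k : n → ℝ) :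
    ‖P.det‖ * ∏ i, ((P i i).re * (Q i i).re + k i ^ 2)
      ≤ ‖(P + diagonal (fun i => (k i : ℂ)) * Q⁻¹ * diagonal (fun i => (k i : ℂ))).det‖
        * ∏ i, ((P i i).re * (Q i i).re) := by
  set K : Matrix n n ℂ := diagonal (fun i => (k i : ℂ)) with hK
  have hKH : Kᴴ = K := by rw [hK, diagonal_conjTranspose]; congr 1; ext a; simp
  have hD : (fromBlocks P 0 0 Q).PosDef := by
    rw [PosSemidef.posDef_iff_det_ne_zero]
    · rw [det_fromBlocks_zero₂₁]; exact mul_ne_zero hP.det_pos.ne' hQ.det_pos.ne'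
    · let _ : Invertible _ := hQ.isUnit.invertible
      have := (PosDef.fromBlocks₂₂ P (0 : Matrix n n ℂ) hQ).mpr (by simpa using hP.posSemidef)
      simpa using this
  have h := (dephase_ineq (lb := Sum.elim id id) (S := fromBlocks 0 K (-K) 0) hD
    (by rw [fromBlocks_conjTranspose, fromBlocks_neg]; simp [hKH])
    (by
      rintro (a | a) (b | b) hab
      · simp
      · have : ¬ a = b := hab
        simp [hK, this]
      · have : ¬ a = b := hab
        simp [hK, this]
      · simp) Finset.univ).2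
  have hre : ∀ {M : Matrix n n ℂ}, M.PosDef → ∀ i, M i i = ((M i i).re : ℂ) := by
    intro M hM i
    have := (Complex.pos_iff.mp (hM.diag_pos (i := i))).2
    apply Complex.ext <;> simp [← this]
  have hpos : ∀ {M : Matrix n n ℂ}, M.PosDef → ∀ i, 0 < (M i i).re := fun hM i =>
    (Complex.pos_iff.mp (hM.diag_pos (i := i))).1
  have e : dephase (Sum.elim id id) Finset.univ (fromBlocks P 0 0 Q)
      = fromBlocks (diagonal fun i => ((P i i).re : ℂ)) 0 0 (diagonal fun i => ((Q i i).re : ℂ)) := by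
    ext (a | a) (b | b)
    · by_cases hab : a = b
      · subst hab; simp [dephase, ← hre hP a]
      · simp [dephase, hab]
    · simp [dephase]
    · simp [dephase]
    · by_cases hab : a = b
      · subst hab; simp [dephase, ← hre hQ a]
      · simp [dephase, hab]
  rw [e, fromBlocks_add, fromBlocks_add, det_fromBlocks_zero₂₁, det_fromBlocks_zero₂₁] at h
  simp only [add_zero, zero_add] at h
  let _ : Invertible _ := hQ.isUnit.invertible
  have hQd : (diagonal fun i => ((Q i i).re : ℂ)).PosDef :=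
    PosDef.diagonal fun i => by exact_mod_cast hpos hQ i
  let _ : Invertible _ := hQd.isUnit.invertible
  rw [det_fromBlocks₂₂, det_fromBlocks₂₂, invOf_eq_nonsing_inv, invOf_eq_nonsing_inv] at h
  have e2 : (diagonal fun i => ((P i i).re : ℂ)) - K * (diagonal fun i => ((Q i i).re : ℂ))⁻¹ * -K
      = diagonal fun i => (((P i i).re + k i ^ 2 / (Q i i).re : ℝ) : ℂ) := by
    have : (diagonal fun i => ((Q i i).re : ℂ))⁻¹ = diagonal fun i => ((Q i i).re : ℂ)⁻¹ := by
      apply Matrix.inv_eq_right_inv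
      rw [diagonal_mul_diagonal, ← diagonal_one]; congr 1; ext a
      have : ((Q a a).re : ℂ) ≠ 0 := by exact_mod_cast (hpos hQ a).ne'
      field_simp
    rw [this, Matrix.mul_neg, sub_neg_eq_add, hK, diagonal_mul_diagonal, diagonal_mul_diagonal,
      diagonal_add]
    congr 1; ext a; push_cast; ring
  rw [e2, Matrix.mul_neg, sub_neg_eq_add] at h
  simp only [det_diagonal, norm_mul, norm_prod, Complex.norm_real, Real.norm_eq_abs] at h
  have a1 : ∀ i, |(Q i i).re| = (Q i i).re := fun i => abs_of_pos (hpos hQ i)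
  have a2 : ∀ i, |(P i i).re| = (P i i).re := fun i => abs_of_pos (hpos hP i)
  have a3 : ∀ i, |(P i i).re + k i ^ 2 / (Q i i).re| = (P i i).re + k i ^ 2 / (Q i i).re :=
    fun i => abs_of_pos (by have := hpos hP i; have := hpos hQ i; positivity)
  simp only [a1, a2, a3] at h
  have a4 : ∏ i, ((P i i).re * (Q i i).re + k i ^ 2)
      = (∏ i, (Q i i).re) * ∏ i, ((P i i).re + k i ^ 2 / (Q i i).re) := by
    rw [← Finset.prod_mul_distrib]
    refine Finset.prod_congr rfl fun i _ => ?_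
    have := hpos hQ i
    field_simp
  rw [a4, Finset.prod_mul_distrib]
  have p := norm_det_pos hQ
  apply le_of_mul_le_mul_right _ p
  calc _ = ((∏ i, (Q i i).re) * ∏ i, ((P i i).re + k i ^ 2 / (Q i i).re)) * (‖P.det‖ * ‖Q.det‖) := by
        ring
    _ ≤ _ := h
    _ = _ := by ring

end Vale.Agent.QInfo
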