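import Mathlib.Analysis.Matrix.Order
import Mathlib.Analysis.SpecialFunctions.Log.NegMulLog
import Mathlib.Analysis.Convex.Jensen
import Mathlib.LinearAlgebra.Matrix.Charpoly.Coeff

/-! Unnormalised von Neumann entropy (nats) of Hermitian matrices: basic facts. -/

open Matrix Real Polynomial
open scoped ComplexOrder

set_option linter.unusedSectionVars false

namespace Vale.Agent.QInfo

variable {n m : Type} [Fintype n] [DecidableEq n] [Fintype m] [DecidableEq m]

open Classical in
/-- minus trace of A log A, natural logarithm. -/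
noncomputable def ent (A : Matrix n n ℂ) : ℝ :=
  if h : A.IsHermitian then ∑ i, negMulLog (h.eigenvalues i) else 0

lemma ent_eq {A : Matrix n n ℂ} (h : A.IsHermitian) :
    ent A = ∑ i, negMulLog (h.eigenvalues i) := by
  simp [ent, h]

lemma ent_eq_roots {A : Matrix n n ℂ} (h : A.IsHermitian) :
    ent A = (A.charpoly.roots.map (fun z => negMulLog z.re)).sum := by
  rw [ent_eq h, h.roots_charpoly_eq_eigenvalues, Multiset.map_map]
  simp

lemma ent_of_charpoly {A : Matrix n n ℂ} (h : A.IsHermitian) {κ : Type} [Fintype κ] (d : κ → ℝ)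
    (hd : A.charpoly = ∏ i, (X - C (d i : ℂ))) : ent A = ∑ i, negMulLog (d i) := by
  rw [ent_eq_roots h, hd, Polynomial.roots_prod]
  · simp
  · simp [Finset.prod_ne_zero_iff, Polynomial.X_sub_C_ne_zero]

lemma ent_congr_charpoly {A : Matrix n n ℂ} {B : Matrix m m ℂ} (hA : A.IsHermitian)
    (hB : B.IsHermitian) (h : A.charpoly = B.charpoly) : ent A = ent B := by
  rw [ent_eq_roots hA, ent_eq_roots hB, h]

lemma ent_submatrix {A : Matrix n n ℂ} (hA : A.IsHermitian) (e : m ≃ n) :
    ent (A.submatrix e e) = ent A := by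
  apply ent_congr_charpoly (hA.submatrix e) hA
  have := Matrix.charpoly_reindex e.symm A
  simpa [Matrix.reindex_apply] using this

lemma ent_conj {A U : Matrix n n ℂ} (hA : A.IsHermitian) (hU : U * Uᴴ = 1) :
    ent (Uᴴ * A * U) = ent A := by
  apply ent_congr_charpoly (Matrix.isHermitian_conjTranspose_mul_mul U hA) hA
  rw [charpoly_mul_comm, ← mul_assoc, hU, one_mul]

lemma ent_diagonal (d : n → ℝ) :
    ent (diagonal (fun i => (d i : ℂ))) = ∑ i, negMulLog (d i) := by
  apply ent_of_charpoly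
  · ext i j
    by_cases h : i = j
    · subst h; simp
    · simp [h, Ne.symm h]
  · simp [charpoly_diagonal]

/-- spectral theorem in a plain form -/
lemma exists_diag {A : Matrix n n ℂ} (hA : A.IsHermitian) :
    ∃ U : Matrix n n ℂ, U * Uᴴ = 1 ∧ Uᴴ * U = 1 ∧
      Uᴴ * A * U = diagonal (fun i => (hA.eigenvalues i : ℂ)) := by
  refine ⟨hA.eigenvectorUnitary, ?_, ?_, ?_⟩
  · exact hA.eigenvectorUnitary.2.2
  · exact hA.eigenvectorUnitary.2.1
  · have := hA.conjStarAlgAut_star_eigenvectorUnitary
    rw [Unitary.conjStarAlgAut_star_apply] at this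
    exact this

lemma det_shift {A : Matrix n n ℂ} (hA : A.IsHermitian) (t : ℝ) :
    ((t : ℂ) • (1 : Matrix n n ℂ) + A).det = ((∏ i, (t + hA.eigenvalues i) : ℝ) : ℂ) := by
  obtain ⟨U, h1, h2, h3⟩ := exists_diag hA
  have : Uᴴ * ((t : ℂ) • (1 : Matrix n n ℂ) + A) * U
      = diagonal (fun i => ((t + hA.eigenvalues i : ℝ) : ℂ)) := by
    rw [Matrix.mul_add, Matrix.add_mul, h3, Matrix.mul_smul, Matrix.mul_one, Matrix.smul_mul, h2]
    ext i j
    by_cases h : i = j
    · subst h; simp
    · simp [h]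
  have hd := congrArg Matrix.det this
  rw [det_mul, det_mul, mul_comm (Uᴴ.det), mul_assoc, ← det_mul, h2, det_one, mul_one,
    det_diagonal] at hd
  rw [hd]; push_cast; rfl

lemma trace_re_eq {A : Matrix n n ℂ} (hA : A.IsHermitian) :
    A.trace.re = ∑ i, hA.eigenvalues i := by
  rw [hA.trace_eq_sum_eigenvalues]; simp

lemma diag_re_nonneg {A : Matrix n n ℂ} (hA : A.PosSemidef) (i : n) : 0 ≤ (A i i).re :=
  (Complex.nonneg_iff.mp (hA.diag_nonneg (i := i))).1

lemma trace_re_nonneg {A : Matrix n n ℂ} (hA : A.PosSemidef) : 0 ≤ A.trace.re :=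
  (Complex.nonneg_iff.mp hA.trace_nonneg).1

lemma trace_re_eq_sum (A : Matrix n n ℂ) : A.trace.re = ∑ i, (A i i).re := by
  simp [Matrix.trace]

lemma trace_conj {A U : Matrix n n ℂ} (hU : U * Uᴴ = 1) : (Uᴴ * A * U).trace = A.trace := by
  rw [Matrix.trace_mul_cycle, hU, Matrix.one_mul]

/-- Peierls inequality. -/
lemma ent_le_diag {A : Matrix n n ℂ} (hA : A.PosSemidef) :
    ent A ≤ ∑ i, negMulLog (A i i).re := by
  obtain ⟨U, h1, h2, h3⟩ := exists_diag hA.1
  have hAU : A = U * diagonal (fun i => (hA.1.eigenvalues i : ℂ)) * Uᴴ := by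
    rw [← h3]
    calc A = (U * Uᴴ) * A * (U * Uᴴ) := by rw [h1]; simp
      _ = _ := by simp only [Matrix.mul_assoc]
  have hrow : ∀ i, ∑ j, Complex.normSq (U i j) = 1 := by
    intro i
    have := congrArg (fun M => (M i i).re) h1
    simpa [Matrix.mul_apply, Complex.normSq_apply] using this
  have hcol : ∀ j, ∑ i, Complex.normSq (U i j) = 1 := by
    intro j
    have := congrArg (fun M => (M j j).re) h2
    simpa [Matrix.mul_apply, Complex.normSq_apply] using this
  have hdiag : ∀ i, (A i i).re = ∑ j, Complex.normSq (U i j) * hA.1.eigenvalues j := by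
    intro i
    conv_lhs => rw [hAU]
    simp only [Matrix.mul_apply, conjTranspose_apply, Complex.re_sum]
    refine Finset.sum_congr rfl fun j _ => ?_
    simp [Matrix.diagonal_apply, Complex.normSq_apply]; ring
  rw [ent_eq hA.1]
  calc ∑ j, negMulLog (hA.1.eigenvalues j)
      = ∑ j, ∑ i, Complex.normSq (U i j) * negMulLog (hA.1.eigenvalues j) := by
        refine Finset.sum_congr rfl fun j _ => ?_
        rw [← Finset.sum_mul, hcol, one_mul]
    _ = ∑ i, ∑ j, Complex.normSq (U i j) * negMulLog (hA.1.eigenvalues j) := Finset.sum_comm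
    _ ≤ _ := by
        refine Finset.sum_le_sum fun i _ => ?_
        rw [hdiag i]
        have := concaveOn_negMulLog.le_map_sum (t := Finset.univ)
          (w := fun j => Complex.normSq (U i j)) (p := fun j => hA.1.eigenvalues j)
          (fun j _ => Complex.normSq_nonneg _) (hrow i) (fun j _ => hA.eigenvalues_nonneg j)
        simpa using this

lemma ent_smul {A : Matrix n n ℂ} (hA : A.IsHermitian) (c : ℝ) :
    ent ((c : ℂ) • A) = c * ent A + A.trace.re * negMulLog c := by
  obtain ⟨U, h1, h2, h3⟩ := exists_diag hA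
  have hc : ((c : ℂ) • A).IsHermitian := by
    unfold Matrix.IsHermitian at *
    rw [conjTranspose_smul, hA]; simp
  rw [← ent_conj hc h1, Matrix.mul_smul, Matrix.smul_mul, h3]
  have : (c : ℂ) • diagonal (fun i => (hA.eigenvalues i : ℂ))
      = diagonal (fun i => ((c * hA.eigenvalues i : ℝ) : ℂ)) := by
    ext i j
    by_cases h : i = j
    · subst h; simp
    · simp [h]
  rw [this, ent_diagonal, ent_eq hA, trace_re_eq hA, Finset.mul_sum, Finset.sum_mul,
    ← Finset.sum_add_distrib]
  refine Finset.sum_congr rfl fun i _ => ?_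
  rw [negMulLog_mul]; ring

/-- Gibbs type inequality for one term. -/
lemma gibbs_term {a s t : ℝ} (ha : 0 ≤ a) (hs : 0 ≤ s) (ht : 0 < t) (h : s = 0 → a = 0) :
    negMulLog a + a * log t + a * log s ≤ s * t - a := by
  rcases ha.eq_or_lt with rfl | ha
  · simp; positivity
  have hs' : 0 < s := lt_of_le_of_ne hs (fun h0 => ha.ne' (h h0.symm))
  have h1 := Real.log_le_sub_one_of_pos (x := s * t / a) (by positivity)
  rw [Real.log_div (by positivity) ha.ne', Real.log_mul hs'.ne' ht.ne'] at h1
  have h2 := mul_le_mul_of_nonneg_left h1 ha.le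
  have h3 : a * (s * t / a - 1) = s * t - a := by field_simp
  simp only [negMulLog]
  nlinarith

/-- superadditivity of the homogeneous Shannon entropy -/
lemma shannon_superadd {ι : Type} [Fintype ι] (a b : ι → ℝ) (ha : ∀ i, 0 ≤ a i)
    (hb : ∀ i, 0 ≤ b i) :
    (∑ i, negMulLog (a i) - negMulLog (∑ i, a i)) + (∑ i, negMulLog (b i) - negMulLog (∑ i, b i))
      ≤ ∑ i, negMulLog (a i + b i) - negMulLog (∑ i, a i + ∑ i, b i) := by
  have key : ∀ (a b : ι → ℝ), (∀ i, 0 ≤ a i) → (∀ i, 0 ≤ b i) →
      ∑ i, negMulLog (a i) - negMulLog (∑ i, a i)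
        ≤ -∑ i, a i * log (a i + b i) + (∑ i, a i) * log (∑ i, a i + ∑ i, b i) := by
    intro a b ha hb
    have hA : 0 ≤ ∑ i, a i := Finset.sum_nonneg fun i _ => ha i
    have hB : 0 ≤ ∑ i, b i := Finset.sum_nonneg fun i _ => hb i
    rcases hA.eq_or_lt with h0 | hA
    · have : ∀ i, a i = 0 := fun i =>
        (Finset.sum_eq_zero_iff_of_nonneg (fun i _ => ha i)).mp h0.symm i (Finset.mem_univ i)
      simp [this]
    set A := ∑ i, a i with hAdef
    set B := ∑ i, b i with hBdef
    have hAB : 0 < A + B := by linarith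
    have h1 : ∀ i, negMulLog (a i) + a i * log (A / (A + B)) + a i * log (a i + b i)
        ≤ (a i + b i) * (A / (A + B)) - a i := fun i =>
      gibbs_term (ha i) (add_nonneg (ha i) (hb i)) (by positivity)
        (fun h => by have := ha i; have := hb i; linarith)
    have h2 := Finset.sum_le_sum (s := Finset.univ) fun i _ => h1 i
    simp only [Finset.sum_add_distrib, Finset.sum_sub_distrib, ← Finset.sum_mul, ← hAdef,
      ← hBdef] at h2
    rw [Real.log_div hA.ne' hAB.ne'] at h2
    have h3 : (A + B) * (A / (A + B)) = A := by field_simp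
    simp only [negMulLog] at h2 ⊢
    nlinarith
  have h1 := key a b ha hb
  have h2 := key b a hb ha
  simp only [add_comm (b _) (a _), add_comm (∑ i, b i) (∑ i, a i)] at h2
  have h3 : ∑ i, negMulLog (a i + b i)
      = -∑ i, a i * log (a i + b i) - ∑ i, b i * log (a i + b i) := by
    rw [← Finset.sum_neg_distrib, ← Finset.sum_sub_distrib]
    refine Finset.sum_congr rfl fun i _ => ?_
    simp only [negMulLog]; ring
  rw [h3]
  simp only [negMulLog] at h1 h2 ⊢
  nlinarith

/-- concavity of the entropy, homogeneous form -/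
lemma ent_add_ge {A B : Matrix n n ℂ} (hA : A.PosSemidef) (hB : B.PosSemidef) :
    (ent A - negMulLog A.trace.re) + (ent B - negMulLog B.trace.re)
      ≤ ent (A + B) - negMulLog (A.trace.re + B.trace.re) := by
  obtain ⟨U, h1, h2, h3⟩ := exists_diag (hA.add hB).1
  have hA' := hA.conjTranspose_mul_mul_same U
  have hB' := hB.conjTranspose_mul_mul_same U
  have e1 := ent_le_diag hA'
  have e2 := ent_le_diag hB'
  rw [ent_conj hA.1 h1] at e1
  rw [ent_conj hB.1 h1] at e2
  have e3 := shannon_superadd (fun i => ((Uᴴ * A * U) i i).re) (fun i => ((Uᴴ * B * U) i i).re)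
    (diag_re_nonneg hA') (diag_re_nonneg hB')
  rw [← trace_re_eq_sum, ← trace_re_eq_sum, trace_conj h1, trace_conj h1] at e3
  have e4 : ent (A + B) = ∑ i, negMulLog (((Uᴴ * A * U) i i).re + ((Uᴴ * B * U) i i).re) := by
    rw [ent_eq (hA.add hB).1]
    refine Finset.sum_congr rfl fun i _ => ?_
    have := congrArg (fun M => (M i i).re) h3
    simp only [Matrix.mul_add, Matrix.add_mul, Matrix.add_apply, Complex.add_re,
      diagonal_apply_eq, Complex.ofReal_re] at this
    rw [this]
  linarith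

lemma posSemidef_block₁₁ {X : Matrix n n ℂ} {Y : Matrix n m ℂ} {Y' : Matrix m n ℂ}
    {Z : Matrix m m ℂ} (h : (fromBlocks X Y Y' Z).PosSemidef) : X.PosSemidef := by
  exact h.submatrix (Sum.inl : n → n ⊕ m)

lemma posSemidef_block₂₂ {X : Matrix n n ℂ} {Y : Matrix n m ℂ} {Y' : Matrix m n ℂ}
    {Z : Matrix m m ℂ} (h : (fromBlocks X Y Y' Z).PosSemidef) : Z.PosSemidef := by
  exact h.submatrix (Sum.inr : m → n ⊕ m)

/-- subadditivity for a qubit times an arbitrary system, after dephasing the qubit -/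
lemma ent_fromBlocks_le {X Y Y' Z : Matrix n n ℂ} (h : (fromBlocks X Y Y' Z).PosSemidef) :
    ent (fromBlocks X Y Y' Z) ≤ negMulLog X.trace.re + negMulLog Z.trace.re
      + (ent (X + Z) - negMulLog (X.trace.re + Z.trace.re)) := by
  have hX := posSemidef_block₁₁ h
  have hZ := posSemidef_block₂₂ h
  obtain ⟨U, h1, h2, h3⟩ := exists_diag (hX.add hZ).1
  have hV : (fromBlocks U 0 0 U) * (fromBlocks U 0 0 U)ᴴ = (1 : Matrix (n ⊕ n) (n ⊕ n) ℂ) := by
    rw [fromBlocks_conjTranspose, fromBlocks_multiply]; simp [h1]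
  have e1 := ent_le_diag (h.conjTranspose_mul_mul_same (fromBlocks U 0 0 U))
  rw [ent_conj h.1 hV, fromBlocks_conjTranspose, fromBlocks_multiply, fromBlocks_multiply] at e1
  simp only [conjTranspose_zero, Matrix.zero_mul, Matrix.mul_zero, add_zero, zero_add,
    Fintype.sum_sum_type, fromBlocks_apply₁₁, fromBlocks_apply₂₂] at e1
  have hA' := hX.conjTranspose_mul_mul_same U
  have hB' := hZ.conjTranspose_mul_mul_same U
  have e3 := shannon_superadd (fun i => ((Uᴴ * X * U) i i).re) (fun i => ((Uᴴ * Z * U) i i).re)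
    (diag_re_nonneg hA') (diag_re_nonneg hB')
  rw [← trace_re_eq_sum, ← trace_re_eq_sum, trace_conj h1, trace_conj h1] at e3
  have e4 : ent (X + Z) = ∑ i, negMulLog (((Uᴴ * X * U) i i).re + ((Uᴴ * Z * U) i i).re) := by
    rw [ent_eq (hX.add hZ).1]
    refine Finset.sum_congr rfl fun i _ => ?_
    have := congrArg (fun M => (M i i).re) h3
    simp only [Matrix.mul_add, Matrix.add_mul, Matrix.add_apply, Complex.add_re,
      diagonal_apply_eq, Complex.ofReal_re] at this
    rw [this]
  linarith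

end Vale.Agent.QInfo
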