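import Mathlib.Analysis.SpecialFunctions.Log.NegMulLog
import Mathlib.Analysis.Calculus.Deriv.MeanValue
import Mathlib.Analysis.Convex.SpecificFunctions.Basic
import Mathlib.Analysis.SpecialFunctions.Sqrt
import Mathlib.Algebra.BigOperators.Field

/-! Scalar lemmas: from inequalities between shifted logarithms to entropy inequalities. -/

open Real Set

namespace Vale.Agent.QInfo

lemma entropy_of_log_shift {ι : Type} [Fintype ι] (c a : ι → ℝ) (ha : ∀ i, 0 ≤ a i)
    (hc : ∑ i, c i = 0) (hca : ∑ i, c i * a i = 0)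
    (h : ∀ t : ℝ, 0 < t → 0 ≤ ∑ i, c i * log (t + a i)) : 0 ≤ ∑ i, c i * negMulLog (a i) := by
  set Φ : ℝ → ℝ := fun t => ∑ i, c i * ((t + a i) * log (t + a i)) with hΦ
  have hder : ∀ t : ℝ, 0 < t → HasDerivAt Φ (∑ i, c i * (log (t + a i) + 1)) t := by
    intro t ht
    apply HasDerivAt.fun_sum
    intro i _
    apply HasDerivAt.const_mul
    have h1 : t + a i ≠ 0 := by have := ha i; positivity
    have := (hasDerivAt_mul_log h1).comp t ((hasDerivAt_id t).add_const (a i))
    simpa [Function.comp_def] using this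
  have hmono : MonotoneOn Φ (Ici 0) := by
    apply monotoneOn_of_deriv_nonneg (convex_Ici 0)
    · apply Continuous.continuousOn
      apply continuous_finsetSum
      intro i _
      exact continuous_const.mul (continuous_mul_log.comp (continuous_id.add continuous_const))
    · intro t ht
      rw [interior_Ici] at ht
      exact (hder t ht).differentiableAt.differentiableWithinAt
    · intro t ht
      rw [interior_Ici] at ht
      rw [(hder t ht).deriv]
      simp only [mul_add, mul_one, Finset.sum_add_distrib, hc, add_zero]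
      exact h t ht
  set K := ∑ i, |c i| * a i ^ 2 with hK
  have hbound : ∀ t : ℝ, 0 < t → Φ t ≤ K / t := by
    intro t ht
    have e : Φ t = ∑ i, c i * ((t + a i) * log (1 + a i / t) - a i) := by
      have e1 : ∀ i, c i * ((t + a i) * log (t + a i))
          = c i * ((t + a i) * log (1 + a i / t) - a i) + (c i * a i) * (1 + log t)
            + c i * (t * log t) := by
        intro i
        have h1 : t + a i = t * (1 + a i / t) := by field_simp
        have h2 : (1 + a i / t) ≠ 0 := by have := ha i; positivity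
        have h3 : log (t + a i) = log t + log (1 + a i / t) := by
          rw [h1, log_mul ht.ne' h2]
        rw [h3]; ring
      simp only [hΦ, e1, Finset.sum_add_distrib, ← Finset.sum_mul, hc, hca, zero_mul, add_zero]
    rw [e, hK, Finset.sum_div]
    refine Finset.sum_le_sum fun i _ => ?_
    have hai := ha i
    have hp : 0 < 1 + a i / t := by positivity
    have u1 : log (1 + a i / t) ≤ a i / t := by
      have := log_le_sub_one_of_pos hp; linarith
    have u2 : 1 - (1 + a i / t)⁻¹ ≤ log (1 + a i / t) := one_sub_inv_le_log_of_pos hp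
    have v1 : (t + a i) * log (1 + a i / t) - a i ≤ a i ^ 2 / t := by
      have : (t + a i) * (a i / t) - a i = a i ^ 2 / t := by field_simp; ring
      have h5 := mul_le_mul_of_nonneg_left u1 (show 0 ≤ t + a i by positivity)
      linarith
    have v2 : 0 ≤ (t + a i) * log (1 + a i / t) - a i := by
      have : (t + a i) * (1 - (1 + a i / t)⁻¹) = a i := by field_simp; ring
      have h5 := mul_le_mul_of_nonneg_left u2 (show 0 ≤ t + a i by positivity)
      linarith
    calc _ ≤ |c i| * ((t + a i) * log (1 + a i / t) - a i) := by gcongr; exact le_abs_self _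
      _ ≤ |c i| * (a i ^ 2 / t) := by gcongr
      _ = _ := by ring
  have h0 : Φ 0 ≤ 0 := by
    by_contra hneg
    push Not at hneg
    have hK0 : 0 ≤ K := Finset.sum_nonneg fun i _ => by positivity
    have ht : 0 < (K + 1) / Φ 0 := by positivity
    have h1 := hmono (mem_Ici.mpr le_rfl) (mem_Ici.mpr ht.le) ht.le
    have h2 := hbound _ ht
    have h3 : K / ((K + 1) / Φ 0) < Φ 0 := by
      rw [div_lt_iff₀ ht]
      have : Φ 0 * ((K + 1) / Φ 0) = K + 1 := by field_simp
      linarith
    linarith
  have e : Φ 0 = -∑ i, c i * negMulLog (a i) := by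
    simp only [hΦ, zero_add, ← Finset.sum_neg_distrib, negMulLog]
    refine Finset.sum_congr rfl fun i _ => by ring
  linarith

/-- larger root of `X^2 - s X + d` -/
noncomputable def rp (s d : ℝ) : ℝ := (s + √(s ^ 2 - 4 * d)) / 2
/-- smaller root of `X^2 - s X + d` -/
noncomputable def rm (s d : ℝ) : ℝ := (s - √(s ^ 2 - 4 * d)) / 2
/-- entropy of a two by two matrix with trace `s` and determinant `d` -/
noncomputable def H2 (s d : ℝ) : ℝ := negMulLog (rp s d) + negMulLog (rm s d)

lemma rp_add_rm (s d : ℝ) : rp s d + rm s d = s := by unfold rp rm; ring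

lemma rp_mul_rm {s d : ℝ} (h : 4 * d ≤ s ^ 2) : rp s d * rm s d = d := by
  unfold rp rm
  have := Real.mul_self_sqrt (show 0 ≤ s ^ 2 - 4 * d by linarith)
  nlinarith

lemma rp_nonneg {s d : ℝ} (hs : 0 ≤ s) : 0 ≤ rp s d := by unfold rp; positivity

lemma rm_nonneg {s d : ℝ} (hs : 0 ≤ s) (hd : 0 ≤ d) : 0 ≤ rm s d := by
  unfold rm
  have : √(s ^ 2 - 4 * d) ≤ s := by
    rw [Real.sqrt_le_left hs]; linarith
  linarith

lemma H2_smul {w : ℝ} (hw : 0 ≤ w) (s d : ℝ) :
    H2 (w * s) (w ^ 2 * d) = w * H2 s d + s * negMulLog w := by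
  have e : √((w * s) ^ 2 - 4 * (w ^ 2 * d)) = w * √(s ^ 2 - 4 * d) := by
    rw [show (w * s) ^ 2 - 4 * (w ^ 2 * d) = w ^ 2 * (s ^ 2 - 4 * d) by ring,
      Real.sqrt_mul (sq_nonneg w), Real.sqrt_sq hw]
  have e1 : rp (w * s) (w ^ 2 * d) = w * rp s d := by unfold rp; rw [e]; ring
  have e2 : rm (w * s) (w ^ 2 * d) = w * rm s d := by unfold rm; rw [e]; ring
  unfold H2
  rw [e1, e2, negMulLog_mul, negMulLog_mul]
  linear_combination (negMulLog w) * rp_add_rm s d

lemma H2_diag (p q : ℝ) : H2 (p + q) (p * q) = negMulLog p + negMulLog q := by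
  have e : √((p + q) ^ 2 - 4 * (p * q)) = |p - q| := by
    rw [show (p + q) ^ 2 - 4 * (p * q) = (p - q) ^ 2 by ring, Real.sqrt_sq_eq_abs]
  unfold H2 rp rm
  rw [e]
  rcases le_total p q with h | h
  · rw [abs_of_nonpos (by linarith), add_comm]; congr 2 <;> ring
  · rw [abs_of_nonneg (by linarith)]; congr 2 <;> ring

/-- the scalar three edge function -/
noncomputable def F3 (x p q : ℝ) : ℝ :=
  H2 (x + p + q) (p * q) - negMulLog x - negMulLog p - negMulLog q

lemma F3_zero (p q : ℝ) : F3 0 p q = 0 := by simp [F3, H2_diag]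

lemma F3_smul {w : ℝ} (hw : 0 ≤ w) (x p q : ℝ) : F3 (w * x) (w * p) (w * q) = w * F3 x p q := by
  unfold F3
  rw [show w * x + w * p + w * q = w * (x + p + q) by ring,
    show w * p * (w * q) = w ^ 2 * (p * q) by ring, H2_smul hw, negMulLog_mul, negMulLog_mul,
    negMulLog_mul]
  ring

lemma log_shift_roots {x p q t : ℝ} (hx : 0 ≤ x) (hp : 0 ≤ p) (hq : 0 ≤ q) (ht : 0 < t) :
    log (t + rp (x + p + q) (p * q)) + log (t + rm (x + p + q) (p * q))
      = log ((t + p) * (t + q) + t * x) := by
  have h1 : 0 ≤ rp (x + p + q) (p * q) := rp_nonneg (by positivity)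
  have h2 : 0 ≤ rm (x + p + q) (p * q) := rm_nonneg (by positivity) (by positivity)
  rw [← log_mul (by positivity) (by positivity)]
  congr 1
  have h3 := rp_add_rm (x + p + q) (p * q)
  have h4 := rp_mul_rm (s := x + p + q) (d := p * q)
    (by nlinarith [sq_nonneg (p - q), mul_nonneg hx hp, mul_nonneg hx hq, sq_nonneg x])
  linear_combination t * h3 + h4

lemma log_tangent {s t S T l : ℝ} (hs : 0 < s) (ht : 0 < t) (hS : 0 < S) (hT : 0 < T)
    (hl : 0 < l) :
    log (S * T + l) - log S - log T - l / (S * T + l) * ((s / S - 1) + (t / T - 1))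
      ≤ log (s * t + l) - log s - log t := by
  set θ := l / (S * T + l) with hθ
  have hθ0 : 0 ≤ θ := by positivity
  have hθ1 : 0 ≤ 1 - θ := by
    rw [hθ, sub_nonneg, div_le_one (by positivity)]; nlinarith [mul_pos hS hT]
  have hc := strictConcaveOn_log_Ioi.concaveOn.2 (mem_Ioi.mpr one_pos)
    (mem_Ioi.mpr (show 0 < S * T / (s * t) by positivity)) hθ1 hθ0 (by ring)
  simp only [smul_eq_mul, log_one, mul_zero, zero_add, mul_one] at hc
  have e : 1 - θ + θ * (S * T / (s * t)) = ((s * t + l) * (S * T)) / ((S * T + l) * (s * t)) := by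
    rw [hθ]; field_simp; ring
  rw [e, log_div (by positivity) (by positivity), log_div (by positivity) (by positivity),
    log_mul (by positivity) (by positivity), log_mul (by positivity) (by positivity),
    log_mul (by positivity) (by positivity), log_mul (by positivity) (by positivity),
    log_mul (by positivity) (by positivity), log_mul (by positivity) (by positivity)] at hc
  have h1 := log_le_sub_one_of_pos (show 0 < s / S by positivity)
  have h2 := log_le_sub_one_of_pos (show 0 < t / T by positivity)
  rw [log_div hs.ne' hS.ne'] at h1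
  rw [log_div ht.ne' hT.ne'] at h2
  have h3 := mul_le_mul_of_nonneg_left (add_le_add h1 h2) hθ0
  nlinarith

lemma F3_jensen {ι : Type} [Fintype ι] (w p q : ι → ℝ) (P Q : ℝ) (hw : ∀ i, 0 ≤ w i)
    (hw1 : ∑ i, w i = 1) (hp : ∀ i, 0 ≤ p i) (hq : ∀ i, 0 ≤ q i) (hP : ∑ i, w i * p i ≤ P)
    (hQ : ∑ i, w i * q i ≤ Q) : F3 1 P Q ≤ ∑ i, w i * F3 1 (p i) (q i) := by
  have hP0 : 0 ≤ P := le_trans (Finset.sum_nonneg fun i _ => mul_nonneg (hw i) (hp i)) hP
  have hQ0 : 0 ≤ Q := le_trans (Finset.sum_nonneg fun i _ => mul_nonneg (hw i) (hq i)) hQ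
  have key := entropy_of_log_shift (ι := ((ι ⊕ ι) ⊕ (ι ⊕ ι)) ⊕ Fin 4)
    (Sum.elim (Sum.elim (Sum.elim w w) (Sum.elim (fun i => -w i) (fun i => -w i))) ![-1, -1, 1, 1])
    (Sum.elim (Sum.elim (Sum.elim (fun i => rp (1 + p i + q i) (p i * q i))
      (fun i => rm (1 + p i + q i) (p i * q i))) (Sum.elim p q))
      ![rp (1 + P + Q) (P * Q), rm (1 + P + Q) (P * Q), P, Q])
    (by
      rintro (((i | i) | (i | i)) | i)
      · exact rp_nonneg (by have := hp i; have := hq i; positivity)
      · exact rm_nonneg (by have := hp i; have := hq i; positivity) (mul_nonneg (hp i) (hq i))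
      · exact hp i
      · exact hq i
      · fin_cases i
        · exact rp_nonneg (by positivity)
        · exact rm_nonneg (by positivity) (by positivity)
        · exact hP0
        · exact hQ0)
    (by simp [Fintype.sum_sum_type, Fin.sum_univ_four])
    (by
      simp only [Fintype.sum_sum_type, Sum.elim_inl, Sum.elim_inr, Fin.sum_univ_four,
        ← Finset.sum_add_distrib]
      have : ∀ i, w i * rp (1 + p i + q i) (p i * q i) + w i * rm (1 + p i + q i) (p i * q i)
          + (-w i * p i + -w i * q i) = w i := fun i => by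
        linear_combination w i * rp_add_rm (1 + p i + q i) (p i * q i)
      simp only [this, hw1]
      simp
      linarith [rp_add_rm (1 + P + Q) (P * Q)])
    (by
      intro t ht
      simp only [Fintype.sum_sum_type, Sum.elim_inl, Sum.elim_inr, Fin.sum_univ_four,
        ← Finset.sum_add_distrib]
      have h1 : ∀ i, w i * log (t + rp (1 + p i + q i) (p i * q i))
          + w i * log (t + rm (1 + p i + q i) (p i * q i))
          + (-w i * log (t + p i) + -w i * log (t + q i))
          = w i * (log ((t + p i) * (t + q i) + t) - log (t + p i) - log (t + q i)) := fun i => by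
        have := log_shift_roots zero_le_one (hp i) (hq i) ht
        rw [mul_one] at this
        linear_combination w i * this
      have h2 := log_shift_roots zero_le_one hP0 hQ0 ht
      rw [mul_one] at h2
      simp only [h1]
      set θ := t / ((t + P) * (t + Q) + t) with hθ
      have hθ0 : 0 ≤ θ := by positivity
      have h3 : ∀ i, w i * (log ((t + P) * (t + Q) + t) - log (t + P) - log (t + Q)
          - θ * (((t + p i) / (t + P) - 1) + ((t + q i) / (t + Q) - 1)))
          ≤ w i * (log ((t + p i) * (t + q i) + t) - log (t + p i) - log (t + q i)) := fun i =>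
        mul_le_mul_of_nonneg_left (log_tangent (by have := hp i; positivity)
          (by have := hq i; positivity) (by positivity) (by positivity) ht) (hw i)
      have h4 := Finset.sum_le_sum (s := Finset.univ) fun i _ => h3 i
      have h5 : ∑ i, w i * (log ((t + P) * (t + Q) + t) - log (t + P) - log (t + Q)
          - θ * (((t + p i) / (t + P) - 1) + ((t + q i) / (t + Q) - 1)))
          = log ((t + P) * (t + Q) + t) - log (t + P) - log (t + Q)
            + θ * ((P - ∑ i, w i * p i) / (t + P) + (Q - ∑ i, w i * q i) / (t + Q)) := by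
        have : ∀ i, w i * (log ((t + P) * (t + Q) + t) - log (t + P) - log (t + Q)
          - θ * (((t + p i) / (t + P) - 1) + ((t + q i) / (t + Q) - 1)))
          = w i * (log ((t + P) * (t + Q) + t) - log (t + P) - log (t + Q)
            + θ * (P / (t + P) + Q / (t + Q))) - (w i * p i) * (θ / (t + P))
              - (w i * q i) * (θ / (t + Q)) := fun i => by
          field_simp; ring
        simp only [this, Finset.sum_sub_distrib, ← Finset.sum_mul, hw1]
        field_simp; ring
      have h6 : 0 ≤ θ * ((P - ∑ i, w i * p i) / (t + P) + (Q - ∑ i, w i * q i) / (t + Q)) := by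
        have := sub_nonneg.mpr hP
        have := sub_nonneg.mpr hQ
        positivity
      simp
      linarith)
  simp only [Fintype.sum_sum_type, Sum.elim_inl, Sum.elim_inr, Fin.sum_univ_four,
    ← Finset.sum_add_distrib] at key
  have : ∀ i, w i * negMulLog (rp (1 + p i + q i) (p i * q i))
      + w i * negMulLog (rm (1 + p i + q i) (p i * q i))
      + (-w i * negMulLog (p i) + -w i * negMulLog (q i)) = w i * F3 1 (p i) (q i) := fun i => by
    simp only [F3, H2, negMulLog_one]; ring
  simp only [this] at key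
  simp at key
  simp only [F3, H2, negMulLog_one] at key ⊢
  linarith

lemma F3_subadd {ι : Type} [Fintype ι] (x p q : ι → ℝ) (P Q : ℝ) (hx : ∀ i, 0 ≤ x i)
    (hp : ∀ i, 0 ≤ p i) (hq : ∀ i, 0 ≤ q i) (hP : ∑ i, p i ≤ P) (hQ : ∑ i, q i ≤ Q) :
    F3 (∑ i, x i) P Q ≤ ∑ i, F3 (x i) (p i) (q i) := by
  have hX : 0 ≤ ∑ i, x i := Finset.sum_nonneg fun i _ => hx i
  rcases hX.eq_or_lt with h0 | hX
  · have : ∀ i, x i = 0 := fun i =>
      (Finset.sum_eq_zero_iff_of_nonneg (fun i _ => hx i)).mp h0.symm i (Finset.mem_univ i)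
    simp [this, F3_zero]
  set X := ∑ i, x i with hXdef
  have aux : ∀ (p : ι → ℝ) (P : ℝ), (∀ i, 0 ≤ p i) → ∑ i, p i ≤ P →
      ∑ i, x i / X * (p i / x i) ≤ P / X := by
    intro p P hp hP
    calc _ ≤ ∑ i, p i / X := by
          refine Finset.sum_le_sum fun i _ => ?_
          rcases (hx i).eq_or_lt with h | h
          · rw [← h]; have := hp i; simp; positivity
          · apply le_of_eq; field_simp
      _ ≤ _ := by rw [← Finset.sum_div]; gcongr
  have h := F3_jensen (fun i => x i / X) (fun i => p i / x i) (fun i => q i / x i) (P / X) (Q / X)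
    (fun i => by have := hx i; positivity) (by rw [← Finset.sum_div]; field_simp; rfl)
    (fun i => div_nonneg (hp i) (hx i)) (fun i => div_nonneg (hq i) (hx i))
    (aux p P hp hP) (aux q Q hq hQ)
  have e1 : F3 X P Q = X * F3 1 (P / X) (Q / X) := by
    rw [← F3_smul hX.le]; congr 1 <;> field_simp
  have e2 : ∀ i, F3 (x i) (p i) (q i) = X * (x i / X * F3 1 (p i / x i) (q i / x i)) := by
    intro i
    rcases (hx i).eq_or_lt with h | h
    · rw [← h]; simp [F3_zero]
    · have : F3 (x i) (p i) (q i) = x i * F3 1 (p i / x i) (q i / x i) := by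
        rw [← F3_smul h.le]; congr 1 <;> field_simp
      rw [this]; field_simp
  rw [e1]
  simp only [e2, ← Finset.mul_sum]
  gcongr

end Vale.Agent.QInfo
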