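import Vale.Agent.Lib.QInfo.DetIneq
import Vale.Agent.Lib.QInfo.Scalar
import Mathlib.Data.Matrix.ColumnRowPartitioned

/-! The three edge entropy inequality for block matrices. -/

open Matrix Real
open scoped ComplexOrder MatrixOrder

set_option linter.unusedSectionVars false

namespace Vale.Agent.QInfo

variable {n m : Type} [Fintype n] [DecidableEq n] [Fintype m] [DecidableEq m]

lemma entry_zero_of_diag_zero {W : Matrix m m ℂ} (hW : W.PosSemidef) {a : m} (h : W a a = 0)
    (b : m) : W a b = 0 := by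
  have h1 := (hW.dotProduct_mulVec_zero_iff (Pi.single a 1)).mp (by simpa using h)
  have h2 : W b a = 0 := by simpa using congrFun h1 b
  rw [← hW.1.apply a b, h2, star_zero]

lemma posDef_shift {A : Matrix n n ℂ} (hA : A.PosSemidef) {t : ℝ} (ht : 0 < t) :
    ((t : ℂ) • (1 : Matrix n n ℂ) + A).PosDef := by
  apply PosDef.add_posSemidef _ hA
  exact PosDef.one.smul (a := (t : ℂ)) (by exact_mod_cast ht)

lemma omega_psd {G Z : Matrix n n ℂ} (hZ : (Z - Gᴴ * G).PosSemidef) {t : ℝ} (ht : 0 < t) :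
    (1 - (t : ℂ) • ((t : ℂ) • (1 : Matrix n n ℂ) + G * Gᴴ)⁻¹
      - G * ((t : ℂ) • (1 : Matrix n n ℂ) + Z)⁻¹ * Gᴴ).PosSemidef := by
  set Q := (t : ℂ) • (1 : Matrix n n ℂ) + G * Gᴴ with hQ
  set T := (t : ℂ) • (1 : Matrix n n ℂ) + Gᴴ * G with hT
  have hQpd : Q.PosDef := posDef_shift (posSemidef_self_mul_conjTranspose G) ht
  have hTpd : T.PosDef := posDef_shift (posSemidef_conjTranspose_mul_self G) ht
  have hZpsd : Z.PosSemidef := by
    have := hZ.add (posSemidef_conjTranspose_mul_self G)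
    simpa using this
  have hZpd := posDef_shift hZpsd ht
  have hQu : IsUnit Q.det := (Matrix.isUnit_iff_isUnit_det _).mp hQpd.isUnit
  have hTu : IsUnit T.det := (Matrix.isUnit_iff_isUnit_det _).mp hTpd.isUnit
  have e1 : Q * G = G * T := by
    rw [hQ, hT, Matrix.add_mul, Matrix.mul_add, Matrix.smul_mul, Matrix.mul_smul, Matrix.one_mul,
      Matrix.mul_one, Matrix.mul_assoc]
  have e2 : G * T⁻¹ = Q⁻¹ * G := by
    calc G * T⁻¹ = (Q⁻¹ * Q) * G * T⁻¹ := by rw [Matrix.nonsing_inv_mul _ hQu, Matrix.one_mul]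
      _ = Q⁻¹ * (Q * G) * T⁻¹ := by simp only [Matrix.mul_assoc]
      _ = Q⁻¹ * G * (T * T⁻¹) := by rw [e1]; simp only [Matrix.mul_assoc]
      _ = _ := by rw [Matrix.mul_nonsing_inv _ hTu, Matrix.mul_one]
  have e3 : 1 - (t : ℂ) • Q⁻¹ - G * T⁻¹ * Gᴴ = 0 := by
    rw [e2, Matrix.mul_assoc, ← Matrix.nonsing_inv_mul _ hQu]
    conv_lhs => enter [1, 1, 2]; rw [hQ]
    rw [Matrix.mul_add, Matrix.mul_smul, Matrix.mul_one]; abel
  let _ : Invertible T := hTpd.isUnit.invertible
  let _ : Invertible _ := hZpd.isUnit.invertible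
  have b1 := (PosDef.fromBlocks₂₂ (1 - (t : ℂ) • Q⁻¹) G hTpd).mpr (by rw [e3]; exact .zero)
  have b2 : (fromBlocks (0 : Matrix n n ℂ) (0 : Matrix n n ℂ) (0 : Matrix n n ℂ)
      (Z - Gᴴ * G)).PosSemidef := by
    have := hZ.conjTranspose_mul_mul_same (fromCols (0 : Matrix n n ℂ) (1 : Matrix n n ℂ))
    rw [conjTranspose_fromCols_eq_fromRows_conjTranspose, fromRows_mul, fromRows_mul_fromCols]
      at this
    simpa using this
  have b3 := b1.add b2
  rw [fromBlocks_add, add_zero, add_zero, add_zero,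
    show T + (Z - Gᴴ * G) = (t : ℂ) • (1 : Matrix n n ℂ) + Z by rw [hT]; abel] at b3
  exact (PosDef.fromBlocks₂₂ _ G hZpd).mp b3

lemma three_edge_diag {x : n → ℝ} {Y Z P : Matrix n n ℂ}
    (hW : (fromBlocks (diagonal fun i => (x i : ℂ)) Y Yᴴ Z).PosSemidef) (hP : P.PosSemidef) :
    ∑ i, negMulLog (x i) + ent P + ent Z + F3 (∑ i, x i) P.trace.re Z.trace.re
      ≤ ent (fromBlocks ((diagonal fun i => (x i : ℂ)) + P) Y Yᴴ Z) := by
  have hx : ∀ i, 0 ≤ x i := fun i => by
    simpa using diag_re_nonneg (posSemidef_block₁₁ hW) i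
  have hZ := posSemidef_block₂₂ hW
  set X : Matrix n n ℂ := diagonal fun i => (x i : ℂ) with hX
  set α : Matrix n n ℂ := diagonal fun i => ((√(x i) : ℝ) : ℂ) with hα
  set D : Matrix n n ℂ := diagonal fun i => (((√(x i))⁻¹ : ℝ) : ℂ) with hD
  have hαH : αᴴ = α := by rw [hα, diagonal_conjTranspose]; congr 1; ext a; simp
  have hDH : Dᴴ = D := by rw [hD, diagonal_conjTranspose]; congr 1; ext a; simp
  have hαα : α * α = X := by
    rw [hα, hX, diagonal_mul_diagonal]; congr 1; ext a
    rw [← Complex.ofReal_mul, Real.mul_self_sqrt (hx a)]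
  set G := D * Y with hG
  have hαG : α * G = Y := by
    ext i j
    rw [hG, ← Matrix.mul_assoc, hα, hD, diagonal_mul_diagonal, diagonal_mul]
    rcases (hx i).eq_or_lt with h | h
    · have := entry_zero_of_diag_zero hW (a := Sum.inl i) (by simp [hX, ← h]) (Sum.inr j)
      simp only [fromBlocks_apply₁₂] at this
      simp [this]
    · have : √(x i) ≠ 0 := (Real.sqrt_pos.mpr h).ne'
      rw [← Complex.ofReal_mul, mul_inv_cancel₀ this]; simp
  have hDα : D * α * G = G := by
    rw [Matrix.mul_assoc, hαG]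
  have hZG : (Z - Gᴴ * G).PosSemidef := by
    have := hW.conjTranspose_mul_mul_same (fromRows (-(D * G)) (1 : Matrix n n ℂ))
    rw [conjTranspose_fromRows_eq_fromCols_conjTranspose, fromCols_mul_fromBlocks,
      fromCols_mul_fromRows] at this
    convert this using 1
    have hαD : Gᴴ * (α * D) = Gᴴ := by
      have := congrArg conjTranspose hDα
      simpa [hαH, hDH, Matrix.mul_assoc] using this
    have hDD : D * α = α * D := by rw [hD, hα, diagonal_mul_diagonal, diagonal_mul_diagonal]; congr 1; ext; ring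
    rw [← hαα, ← hαG]
    simp only [conjTranspose_neg, conjTranspose_mul, hDH, hαH, conjTranspose_one, Matrix.one_mul,
      Matrix.mul_one]
    have f1 : Gᴴ * D * (α * G) = Gᴴ * G := by
      rw [Matrix.mul_assoc, ← Matrix.mul_assoc D, hDα]
    have f2 : Gᴴ * D * (α * α) = Gᴴ * α := by
      rw [Matrix.mul_assoc, ← Matrix.mul_assoc D, hDD, ← Matrix.mul_assoc, hαD]
    rw [Matrix.neg_mul, Matrix.neg_mul, f1, f2]
    simp; abel
  have hN : (fromBlocks (X + P) Y Yᴴ Z).PosSemidef := by
    have b2 : (fromBlocks P (0 : Matrix n n ℂ) (0 : Matrix n n ℂ) (0 : Matrix n n ℂ)).PosSemidef := by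
      have := hP.conjTranspose_mul_mul_same (fromCols (1 : Matrix n n ℂ) (0 : Matrix n n ℂ))
      rw [conjTranspose_fromCols_eq_fromRows_conjTranspose, fromRows_mul, fromRows_mul_fromCols]
        at this
      simpa using this
    have := hW.add b2
    rwa [fromBlocks_add, add_zero, add_zero, add_zero] at this
  set p : n → ℝ := fun i => (P i i).re with hp
  set q : n → ℝ := fun i => ((G * Gᴴ) i i).re with hq
  have hp0 : ∀ i, 0 ≤ p i := diag_re_nonneg hP
  have hq0 : ∀ i, 0 ≤ q i := diag_re_nonneg (posSemidef_self_mul_conjTranspose G)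
  have hqs : ∑ i, q i ≤ Z.trace.re := by
    have := trace_re_nonneg hZG
    rw [trace_sub, Complex.sub_re, Matrix.trace_mul_comm, trace_re_eq_sum (G * Gᴴ)] at this
    linarith
  have hdet : ∀ t : ℝ, 0 < t →
      (∏ i, (t + hZ.1.eigenvalues i)) * ((∏ i, (t + hP.1.eigenvalues i))
        * ∏ i, ((t + p i) * (t + q i) + t * x i))
      ≤ (∏ i, (t + hN.1.eigenvalues i)) * ∏ i, ((t + p i) * (t + q i)) := by
    intro t ht
    have hP' := posDef_shift hP ht
    have hQ' := posDef_shift (posSemidef_self_mul_conjTranspose G) ht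
    have hT := posDef_shift hZ ht
    have h1 := det_dephase hP' hQ' (fun i => √t * √(x i))
    have hK : (diagonal fun i => ((√t * √(x i) : ℝ) : ℂ)) = ((√t : ℝ) : ℂ) • α := by
      rw [hα, ← diagonal_smul]; congr 1; ext a; simp
    have e0 : ∀ i, (√t * √(x i)) ^ 2 = t * x i := fun i => by
      rw [mul_pow, Real.sq_sqrt ht.le, Real.sq_sqrt (hx i)]
    simp only [hK, e0, Matrix.add_apply, Matrix.smul_apply, one_apply_eq, smul_eq_mul, mul_one,
      Complex.add_re, Complex.ofReal_re] at h1
    rw [norm_det_shift hP ht.le] at h1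
    set Q' := (t : ℂ) • (1 : Matrix n n ℂ) + G * Gᴴ
    set T := (t : ℂ) • (1 : Matrix n n ℂ) + Z with hTdef
    set P' := (t : ℂ) • (1 : Matrix n n ℂ) + P with hP'def
    have e1 : ((√t : ℝ) : ℂ) • α * Q'⁻¹ * ((√t : ℝ) : ℂ) • α = αᴴ * ((t : ℂ) • Q'⁻¹) * α := by
      rw [hαH]
      simp only [Matrix.smul_mul, Matrix.mul_smul, smul_smul]
      rw [← Complex.ofReal_mul, Real.mul_self_sqrt ht.le]
    rw [e1] at h1
    have hpd : (P' + αᴴ * ((t : ℂ) • Q'⁻¹) * α).PosDef := by
      apply hP'.add_posSemidef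
      exact (hQ'.inv.posSemidef.smul (by exact_mod_cast ht.le)).conjTranspose_mul_mul_same α
    have h2 := norm_det_mono hpd (B := P' + X - Y * T⁻¹ * Yᴴ) (by
      have := (omega_psd hZG ht).conjTranspose_mul_mul_same α
      convert this using 1
      rw [← hαα, ← hαG, conjTranspose_mul, hαH]
      noncomm_ring)
    have h3 := norm_det_shift hN ht.le
    let _ : Invertible T := hT.isUnit.invertible
    have e2 : (t : ℂ) • (1 : Matrix (n ⊕ n) (n ⊕ n) ℂ) + fromBlocks (X + P) Y Yᴴ Z
        = fromBlocks (P' + X) Y Yᴴ T := by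
      rw [← fromBlocks_one, fromBlocks_smul, fromBlocks_add, hP'def, hTdef]
      simp only [smul_zero, zero_add]
      congr 1; abel
    rw [e2, det_fromBlocks₂₂, invOf_eq_nonsing_inv, norm_mul, norm_det_shift hZ ht.le] at h3
    rw [← h3]
    have z1 : 0 ≤ ∏ i, (t + hZ.1.eigenvalues i) :=
      Finset.prod_nonneg fun i _ => add_nonneg ht.le (hZ.eigenvalues_nonneg i)
    have z2 : 0 ≤ ∏ i, ((t + p i) * (t + q i)) :=
      Finset.prod_nonneg fun i _ => by have := hp0 i; have := hq0 i; positivity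
    rw [mul_assoc]
    apply mul_le_mul_of_nonneg_left _ z1
    exact h1.trans (mul_le_mul_of_nonneg_right h2 z2)
  have key := entropy_of_log_shift (ι := ((n ⊕ n) ⊕ (n ⊕ n)) ⊕ ((n ⊕ n) ⊕ (n ⊕ n)))
    (Sum.elim (fun _ => 1) (fun _ => -1))
    (Sum.elim (Sum.elim hN.1.eigenvalues (Sum.elim p q))
      (Sum.elim (Sum.elim hZ.1.eigenvalues hP.1.eigenvalues)
        (Sum.elim (fun i => rp (x i + p i + q i) (p i * q i))
          (fun i => rm (x i + p i + q i) (p i * q i)))))
    (by
      rintro ((i | (i | i)) | ((i | i) | (i | i)))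
      · exact hN.eigenvalues_nonneg i
      · exact hp0 i
      · exact hq0 i
      · exact hZ.eigenvalues_nonneg i
      · exact hP.eigenvalues_nonneg i
      · exact rp_nonneg (by have := hx i; have := hp0 i; have := hq0 i; positivity)
      · exact rm_nonneg (by have := hx i; have := hp0 i; have := hq0 i; positivity)
          (mul_nonneg (hp0 i) (hq0 i)))
    (by simp; ring)
    (by
      rw [Fintype.sum_sum_type, Fintype.sum_sum_type]
      simp only [Sum.elim_inl, Sum.elim_inr, one_mul, ← trace_re_eq hN.1]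
      simp only [Fintype.sum_sum_type, Sum.elim_inl, Sum.elim_inr, neg_mul, one_mul,
        Finset.sum_neg_distrib, ← trace_re_eq hZ.1, ← trace_re_eq hP.1]
      have a1 : ∑ i, rp (x i + p i + q i) (p i * q i) + ∑ i, rm (x i + p i + q i) (p i * q i)
          = ∑ i, x i + ∑ i, p i + ∑ i, q i := by
        simp only [← Finset.sum_add_distrib, rp_add_rm]
      have a2 : (fromBlocks (X + P) Y Yᴴ Z).trace.re = ∑ i, x i + P.trace.re + Z.trace.re := by
        simp [Matrix.trace, Fintype.sum_sum_type, hX, Finset.sum_add_distrib]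
      linarith)
    (by
      intro t ht
      rw [Fintype.sum_sum_type, Fintype.sum_sum_type]
      simp only [Sum.elim_inl, Sum.elim_inr, one_mul]
      rw [Fintype.sum_sum_type (α₁ := n) (α₂ := n) (f := fun i => log (t + Sum.elim p q i))]
      simp only [Fintype.sum_sum_type (α₁ := n ⊕ n), Sum.elim_inl, Sum.elim_inr, neg_mul, one_mul,
        Finset.sum_neg_distrib]
      rw [Fintype.sum_sum_type (f := fun i => log (t + Sum.elim hZ.1.eigenvalues hP.1.eigenvalues i)),
        Fintype.sum_sum_type (f := fun i => log (t + Sum.elim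
          (fun i => rp (x i + p i + q i) (p i * q i))
          (fun i => rm (x i + p i + q i) (p i * q i)) i))]
      simp only [Sum.elim_inl, Sum.elim_inr]
      have pN : ∀ i, 0 < t + hN.1.eigenvalues i := fun i => by linarith [hN.eigenvalues_nonneg i]
      have pZ : ∀ i, 0 < t + hZ.1.eigenvalues i := fun i => by linarith [hZ.eigenvalues_nonneg i]
      have pP : ∀ i, 0 < t + hP.1.eigenvalues i := fun i => by linarith [hP.eigenvalues_nonneg i]
      have pp : ∀ i, 0 < t + p i := fun i => by linarith [hp0 i]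
      have pq : ∀ i, 0 < t + q i := fun i => by linarith [hq0 i]
      have pr : ∀ i, 0 < (t + p i) * (t + q i) + t * x i := fun i => by
        have := pp i; have := pq i; have := hx i; positivity
      have h := Real.log_le_log (by
        have := Finset.prod_pos (s := Finset.univ) fun i _ => pZ i
        have := Finset.prod_pos (s := Finset.univ) fun i _ => pP i
        have := Finset.prod_pos (s := Finset.univ) fun i _ => pr i
        positivity) (hdet t ht)
      rw [log_mul (Finset.prod_pos fun i _ => pZ i).ne'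
          (mul_pos (Finset.prod_pos fun i _ => pP i) (Finset.prod_pos fun i _ => pr i)).ne',
        log_mul (Finset.prod_pos fun i _ => pP i).ne' (Finset.prod_pos fun i _ => pr i).ne',
        log_mul (Finset.prod_pos fun i _ => pN i).ne'
          (Finset.prod_pos fun i _ => mul_pos (pp i) (pq i)).ne',
        log_prod fun i _ => (pZ i).ne', log_prod fun i _ => (pP i).ne',
        log_prod fun i _ => (pr i).ne', log_prod fun i _ => (pN i).ne',
        log_prod fun i _ => (mul_pos (pp i) (pq i)).ne'] at h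
      have a1 : ∑ i, log (t + rp (x i + p i + q i) (p i * q i))
          + ∑ i, log (t + rm (x i + p i + q i) (p i * q i))
          = ∑ i, log ((t + p i) * (t + q i) + t * x i) := by
        rw [← Finset.sum_add_distrib]
        exact Finset.sum_congr rfl fun i _ => log_shift_roots (hx i) (hp0 i) (hq0 i) ht
      have a2 : ∑ i, log ((t + p i) * (t + q i)) = ∑ i, log (t + p i) + ∑ i, log (t + q i) := by
        rw [← Finset.sum_add_distrib]
        exact Finset.sum_congr rfl fun i _ => log_mul (pp i).ne' (pq i).ne'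
      linarith)
  rw [Fintype.sum_sum_type, Fintype.sum_sum_type] at key
  simp only [Sum.elim_inl, Sum.elim_inr, one_mul, ← ent_eq hN.1] at key
  simp only [Fintype.sum_sum_type, Sum.elim_inl, Sum.elim_inr, neg_mul, one_mul,
    Finset.sum_neg_distrib, ← ent_eq hZ.1, ← ent_eq hP.1] at key
  have h5 := F3_subadd x p q P.trace.re Z.trace.re hx hp0 hq0 (trace_re_eq_sum P).ge hqs
  simp only [F3, H2, Finset.sum_sub_distrib, Finset.sum_add_distrib] at h5 ⊢
  linarith

/-- Three edge inequality. -/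
theorem three_edge {X Y Z P : Matrix n n ℂ} (hW : (fromBlocks X Y Yᴴ Z).PosSemidef)
    (hP : P.PosSemidef) :
    ent X + ent P + ent Z + F3 X.trace.re P.trace.re Z.trace.re
      ≤ ent (fromBlocks (X + P) Y Yᴴ Z) := by
  have hX := posSemidef_block₁₁ hW
  obtain ⟨U, h1, h2, h3⟩ := exists_diag hX.1
  have hV : (fromBlocks U 0 0 1) * (fromBlocks U 0 0 1)ᴴ = (1 : Matrix (n ⊕ n) (n ⊕ n) ℂ) := by
    rw [fromBlocks_conjTranspose, fromBlocks_multiply]; simp [h1]
  have hc : ∀ M : Matrix n n ℂ, (fromBlocks U 0 0 1)ᴴ * fromBlocks M Y Yᴴ Z * (fromBlocks U 0 0 1)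
      = fromBlocks (Uᴴ * M * U) (Uᴴ * Y) (Uᴴ * Y)ᴴ Z := by
    intro M
    rw [fromBlocks_conjTranspose, fromBlocks_multiply, fromBlocks_multiply]; simp
  have hW' := hW.conjTranspose_mul_mul_same (fromBlocks U 0 0 (1 : Matrix n n ℂ))
  rw [hc, h3] at hW'
  have h := three_edge_diag hW' (hP.conjTranspose_mul_mul_same U)
  have hNh : (fromBlocks (X + P) Y Yᴴ Z).IsHermitian :=
    IsHermitian.fromBlocks (hX.1.add hP.1) rfl (posSemidef_block₂₂ hW).1
  rw [← ent_conj hNh hV, hc, Matrix.mul_add, Matrix.add_mul, h3]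
  rw [ent_conj hP.1 h1, trace_conj h1, ← ent_eq hX.1, ← trace_re_eq hX.1] at h
  exact h

end Vale.Agent.QInfo
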